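import Vale.Agent.P093C.Defs
import Vale.Agent.P093E.Stmt

/-! P093E: definitions used in the proof (no task here). -/

open Filter Topology Set

noncomputable section

namespace Vale.Agent.P093

/-- Sign conditions on the pairs. -/
structure MirH {T : Type} [TopologicalSpace T] {m : ℕ} (A B : Fin m → Set T) {Ω : Type}
    [TopologicalSpace Ω] (R : T × Ω → Fin m → ℝ) : Prop where
  cont : Continuous R
  bd : ∀ z i, |R z i| ≤ 1
  lo : ∀ z i, z.1 ∈ A i → R z i ≤ 0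
  hi : ∀ z i, z.1 ∈ B i → 0 ≤ R z i

variable {X : Type} [MetricSpace X]

/-- Essential disjoint pairs. -/
def EssD {m : ℕ} (A B : Fin m → Set X) : Prop := Ess A B ∧ ∀ i, ∀ a ∈ A i, a ∉ B i

/-- Products of spheres along long orbit segments, up to an essential correspondence. -/
structure MarkD (h : X ≃ₜ X) (q p : ℕ) (ε : ℝ) {L : Type} (g : X → ℝ)
    (ρ : L → X → Fin 3 → ℝ) : Prop where
  urp : Urp h q ε g
  cont : ∀ i, Continuous (ρ i)
  ball : ∀ i x, ∑ c, ρ i x c ^ 2 ≤ 1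
  cube : ∀ C : ℕ, ∃ (M m k o : ℕ) (A B : Fin m → Set X) (φ : X → X)
    (R : X × (Fin M × L → S2) → Fin m → ℝ), EssD A B ∧ Continuous φ ∧ MirH A B R ∧
    (∀ τ ω, R (τ, ω) = 0 → ∃ Bad : Finset (Fin M × L), Bad.card ≤ k ∧ ∀ γ ∉ Bad, ∀ s : Fin q,
      g ((h ^ pos γ.1 s) (φ τ)) ≠ 0 → ρ γ.2 ((h ^ pos γ.1 s) (φ τ)) = (ω γ).1) ∧
    (∀ τ, ∃ Off : Finset (Fin M), Off.card ≤ o ∧
      ∀ j ∉ Off, ∃ s : Fin q, g ((h ^ pos j s) (φ τ)) = 1) ∧
    4 * k + C + o * p < M * p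

end Vale.Agent.P093
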