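import Vale.Agent.P093C.RetB
import Vale.Agent.P093E.Defs

/-! P093E Ret. The retraction to the skeleton, for pairs of sets. -/

open Filter Topology Set

noncomputable section

namespace Vale.Agent.P093

theorem exists_RD {T : Type} [TopologicalSpace T] {m : ℕ} {A B : Fin m → Set T}
    {Ω I O P : Type} [TopologicalSpace Ω] [Fintype I] [DecidableEq I]
    [Fintype O] [Fintype P] {col : O → I} {val : O → T → ℝ} (opt : P → Set O)
    (vc : ∀ o, Continuous (val o)) (v0 : ∀ o τ, 0 ≤ val o τ) (v1 : ∀ o τ, val o τ ≤ 1)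
    (sep : ∀ a b, a ≠ b → col a = col b → ∀ τ, val a τ = 0 ∨ val b τ = 0)
    (one : ∀ τ n, ∃ o ∈ opt n, val o τ = 1)
    (far : ∀ W : P → O, (∀ n, W n ∈ opt n) → ∀ i τ τ', τ ∈ A i → τ' ∈ B i →
      (∀ n, val (W n) τ ≠ 0) → ¬∀ n, val (W n) τ' ≠ 0)
    {y : Ω → I → ℝ} (yc : Continuous y) (y0 : ∀ ω i, 0 < y ω i) (y1 : ∀ ω i, y ω i < 1) :
    ∃ R : T × Ω → Fin m → ℝ, MirH A B R ∧ ∀ τ ω, R (τ, ω) = 0 →
      m ≤ {i | ∑ o with col o = i, val o τ = y ω i}.ncard := by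
  classical
  rcases Nat.eq_zero_or_pos m with rfl | hm
  · exact ⟨fun _ => 0, ⟨continuous_const, fun _ i => i.elim0, fun _ i => i.elim0,
      fun _ i => i.elim0⟩, fun _ _ _ => Nat.zero_le _⟩
  have yc' : ∀ i, Continuous fun z : T × Ω => y z.2 i := fun i =>
    (continuous_apply i).comp (yc.comp continuous_snd)
  obtain ⟨μ, μc, μ0, μ1, μz, μl⟩ := exists_mu (Z := T × Ω)
    (s := fun z i => rtb_sg (y z.2 i) (∑ o with col o = i, val o z.1))
    (continuous_pi fun i => rtb_cont (yc' i)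
      (continuous_finsetSum _ fun o _ => (vc o).comp continuous_fst) (fun z => y0 _ _)
      fun z => y1 _ _) hm
  obtain ⟨t, ht⟩ : ∃ t : T × Ω → O → ℝ,
      ∀ z o, t z o = rtb_tr (μ z) (rtb_sg (y z.2 (col o)) (val o z.1)) := ⟨_, fun _ _ => rfl⟩
  have tc : ∀ o, Continuous fun z => t z o := fun o => by
    have h1 := rtb_cont (yc' (col o)) ((vc o).comp continuous_fst) (fun z => y0 _ _)
      fun z => y1 _ _
    simp only [ht]
    exact ((μc.neg.max (h1.min μc)).add μc).div_const 2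
  have t0 : ∀ z o, 0 ≤ t z o := fun z o => ht z o ▸ rtb_tr_nonneg _ _
  have t1 : ∀ z o, t z o ≤ 1 := fun z o => ht z o ▸ (rtb_tr_le (μ0 z) _).trans (μ1 z)
  have tv : ∀ z o, t z o ≠ 0 → val o z.1 ≠ 0 := fun z o h h1 => h (by
    rw [ht, h1, rtb_zero (y0 _ _) (y1 _ _)]
    exact rtb_tr_lo (neg_le_neg (μ1 z)))
  let 𝒲 : Type := {W : P → O // ∀ n, W n ∈ opt n}
  let _ : Fintype 𝒲 := Fintype.ofFinite _
  obtain ⟨e, he⟩ : ∃ e : 𝒲 → Fin m → ℝ, ∀ W i,
      e W i = if ∃ τ' : T, τ' ∈ B i ∧ ∀ n, val (W.1 n) τ' ≠ 0 then 1 else 0 :=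
    ⟨_, fun _ _ => rfl⟩
  obtain ⟨c, hc, hg⟩ := exists_gen (𝒲 := 𝒲) (fun W (θ : O → ℝ) => ∏ n, θ (W.1 n))
    (fun W => contDiff_prod fun n _ => contDiff_apply ℝ ℝ (W.1 n)) e
  have N0 : (0 : ℝ) < Fintype.card 𝒲 + 1 := by positivity
  have p0 : ∀ z (W : 𝒲), 0 ≤ ∏ n, t z (W.1 n) := fun z W => Finset.prod_nonneg fun n _ => t0 _ _
  refine ⟨fun z i => (∑ W : 𝒲, (∏ n, t z (W.1 n)) * (e W i - c i)) / (Fintype.card 𝒲 + 1),
    ⟨continuous_pi fun i => (continuous_finsetSum _ fun W _ =>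
      (continuous_finsetProd _ fun n _ => tc _).mul continuous_const).div_const _,
      fun z i => ?_, fun z i hz => ?_, fun z i hz => ?_⟩, fun τ ω h => ?_⟩
  · rw [abs_div, abs_of_pos N0, div_le_one N0]
    refine (Finset.abs_sum_le_sum_abs _ _).trans ((Finset.sum_le_card_nsmul _ _ 1
      fun W _ => ?_).trans (by simp))
    rw [abs_mul, abs_of_nonneg (p0 z W)]
    refine mul_le_one₀ (Finset.prod_le_one (fun n _ => t0 _ _) fun n _ => t1 _ _) (abs_nonneg _) ?_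
    have h1 := hc i
    rw [he, abs_le]
    split_ifs <;> constructor <;> linarith [h1.1, h1.2]
  · refine div_nonpos_of_nonpos_of_nonneg (Finset.sum_nonpos fun W _ => ?_) N0.le
    by_cases h : ∏ n, t z (W.1 n) = 0
    · rw [h, zero_mul]
    · have h1 : ∀ n, val (W.1 n) z.1 ≠ 0 := fun n =>
        tv z _ (Finset.prod_ne_zero_iff.1 h n (Finset.mem_univ n))
      rw [he, if_neg fun ⟨τ', h2, h3⟩ => far W.1 W.2 i z.1 τ' hz h2 h1 h3]
      exact mul_nonpos_of_nonneg_of_nonpos (p0 z W) (by linarith [(hc i).1])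
  · refine div_nonneg (Finset.sum_nonneg fun W _ => ?_) N0.le
    by_cases h : ∏ n, t z (W.1 n) = 0
    · rw [h, zero_mul]
    · have h1 : ∀ n, val (W.1 n) z.1 ≠ 0 := fun n =>
        tv z _ (Finset.prod_ne_zero_iff.1 h n (Finset.mem_univ n))
      rw [he, if_pos ⟨z.1, hz, h1⟩]
      exact mul_nonneg (p0 z W) (by linarith [(hc i).2])
  · by_cases hμ : μ (τ, ω) = 0
    · exact (μz _ hμ).trans (ncard_le_ncard (fun i hi => rtb_eq (y0 _ _) (y1 _ _) hi) (toFinite _))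
    exfalso
    have μp : 0 < μ (τ, ω) := lt_of_le_of_ne (μ0 _) (Ne.symm hμ)
    have a1 : {o | t (τ, ω) o / μ (τ, ω) ≠ 0 ∧ t (τ, ω) o / μ (τ, ω) ≠ 1}.ncard < m := by
      have b1 : ∀ o, t (τ, ω) o / μ (τ, ω) ≠ 0 → val o τ ≠ 0 := fun o h1 =>
        tv (τ, ω) o fun h2 => h1 (by rw [h2, zero_div])
      refine lt_of_le_of_lt (ncard_le_ncard_of_injOn col (fun o ho => ?_)
        (fun a ha b hb hab => ?_) (toFinite _)) (μl (τ, ω))
      · have b2 : ∑ o' with col o' = col o, val o' τ = val o τ :=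
          Finset.sum_eq_single_of_mem o (by simp) fun o' h1 h2 =>
            (sep o' o h2 (Finset.mem_filter.1 h1).2 τ).resolve_right (b1 o ho.1)
        change |rtb_sg (y ω (col o)) (∑ o' with col o' = col o, val o' τ)| < μ (τ, ω)
        rw [b2, abs_lt]
        refine ⟨lt_of_not_ge fun h1 => ho.1 ?_, lt_of_not_ge fun h1 => ho.2 ?_⟩
        · rw [ht, rtb_tr_lo h1, zero_div]
        · rw [ht, rtb_tr_hi μp.le h1, div_self hμ]
      · by_contra h1
        exact (sep a b h1 hab τ).elim (b1 a ha.1) (b1 b hb.1)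
    have a2 : ∑ W : 𝒲, ∏ n, t (τ, ω) (W.1 n) / μ (τ, ω) ≠ 0 := by
      choose W hW hW' using one τ
      refine (Finset.sum_pos' (fun W _ => Finset.prod_nonneg fun n _ => div_nonneg (t0 _ _) μp.le)
        ⟨⟨W, hW⟩, Finset.mem_univ _, Finset.prod_pos fun n _ => div_pos ?_ μp⟩).ne'
      rw [ht]
      change 0 < rtb_tr _ (rtb_sg _ (val (W n) τ))
      rw [hW', rtb_one (y0 _ _) (y1 _ _), rtb_tr_hi μp.le (μ1 _)]
      exact μp
    obtain ⟨i, hi⟩ := hg _ a1 a2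
    have a3 := (div_eq_zero_iff.1 (congrFun h i)).resolve_right N0.ne'
    refine hi ?_
    simp only [Finset.prod_div_distrib, div_mul_eq_mul_div, ← Finset.sum_div]
    rw [a3, zero_div]

end Vale.Agent.P093
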